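import Mathlib

/-!
# Seymour's second neighbourhood conjecture for dense oriented graphs

Every nonempty finite oriented graph on `n` vertices whose minimum out-degree `δ` satisfies
`n ≤ 2 δ + 2` has a vertex `v` with `|N₁⁺(v)| ≤ |N₂⁺(v)|`.

The proof is a double count of the pairs `(v, w)` such that `w` is neither `v`, nor an
out-neighbour, nor a second out-neighbour of `v`.
-/

open Finset

namespace Vale.Agent.Results.P038.DenseMinOutdegree

section aux

variable {V : Type*} [DecidableEq V] (Adj : V → V → Prop) [DecidableRel Adj]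

/-- In an oriented graph, twice the number of arcs inside `Q` is at most `|Q| (|Q| - 1)`. -/
lemma two_mul_arcs_le (horiented : ∀ u v, Adj u v → ¬ Adj v u) (Q : Finset V) :
    2 * ∑ v ∈ Q, (Q.filter (fun u => Adj v u)).card + Q.card ≤ Q.card * Q.card := by
  set E := (Q ×ˢ Q).filter (fun p : V × V => Adj p.1 p.2) with hE
  set E' := (Q ×ˢ Q).filter (fun p : V × V => Adj p.2 p.1) with hE'
  have hsum : ∑ v ∈ Q, (Q.filter (fun u => Adj v u)).card = E.card := by
    rw [hE, card_filter, sum_product]
    refine sum_congr rfl fun v _ => ?_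
    rw [card_filter]
  have hEE' : E.card = E'.card := by
    apply card_bij (fun p _ => (p.2, p.1))
    · rintro ⟨a, b⟩ h
      simp only [hE, hE', mem_filter, mem_product] at h ⊢
      exact ⟨⟨h.1.2, h.1.1⟩, h.2⟩
    · rintro ⟨a, b⟩ _ ⟨c, d⟩ _ h
      simp only [Prod.mk.injEq] at h
      simp [h.1, h.2]
    · rintro ⟨a, b⟩ h
      simp only [hE', mem_filter, mem_product] at h
      refine ⟨(b, a), ?_, rfl⟩
      simp only [hE, mem_filter, mem_product]
      exact ⟨⟨h.1.2, h.1.1⟩, h.2⟩
  have hdisj : Disjoint E E' := by
    rw [disjoint_left]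
    rintro ⟨a, b⟩ h h'
    simp only [hE, hE', mem_filter] at h h'
    exact horiented _ _ h.2 h'.2
  have hsub : E ∪ E' ⊆ Q.offDiag := by
    rintro ⟨a, b⟩ h
    simp only [hE, hE', mem_union, mem_filter, mem_product] at h
    simp only [mem_offDiag]
    rcases h with h | h
    · exact ⟨h.1.1, h.1.2, fun hab => horiented a b h.2 (hab ▸ h.2)⟩
    · exact ⟨h.1.1, h.1.2, fun hab => horiented b a h.2 (hab ▸ h.2)⟩
  have hc := card_le_card hsub
  rw [card_union_of_disjoint hdisj, offDiag_card] at hc
  have hle : Q.card ≤ Q.card * Q.card := Nat.le_mul_self _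
  rw [hsum]
  omega

end aux

theorem result {V : Type*} [Finite V] [Nonempty V] (Adj : V → V → Prop)
    (horiented : ∀ u v, Adj u v → ¬ Adj v u) (δ : ℕ)
    (hδ : ∀ v, δ ≤ {u | Adj v u}.ncard) (hn : Nat.card V ≤ 2 * δ + 2) :
    ∃ v, {u | Adj v u}.ncard ≤ {w | w ≠ v ∧ ¬ Adj v w ∧ ∃ u, Adj v u ∧ Adj u w}.ncard := by
  classical
  have : Fintype V := Fintype.ofFinite V
  set n := Fintype.card V with hncard
  rw [Nat.card_eq_fintype_card] at hn
  have hnpos : 0 < n := Fintype.card_pos
  have hcu : (univ : Finset V).card = n := card_univ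
  let out : V → Finset V := fun v => univ.filter (fun u => Adj v u)
  let inn : V → Finset V := fun w => univ.filter (fun u => Adj u w)
  let N2 : V → Finset V := fun v => univ.filter (fun w => w ≠ v ∧ ¬ Adj v w ∧ ∃ u, Adj v u ∧ Adj u w)
  let bad : V → Finset V :=
    fun v => univ.filter (fun w => w ≠ v ∧ ¬ Adj v w ∧ ¬ ∃ u, Adj v u ∧ Adj u w)
  let Q : V → Finset V := fun w => univ.filter (fun v => w ∈ bad v)
  have e1 : ∀ v, {u | Adj v u}.ncard = (out v).card := by
    intro v
    rw [← Set.ncard_coe_finset]; congr 1; ext; simp [out]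
  have e2 : ∀ v, {w | w ≠ v ∧ ¬ Adj v w ∧ ∃ u, Adj v u ∧ Adj u w}.ncard = (N2 v).card := by
    intro v
    rw [← Set.ncard_coe_finset]; congr 1; ext; simp [N2]
  simp only [e1, e2] at hδ ⊢
  by_contra hcon
  push Not at hcon
  -- partition of the vertex set seen from `v`
  have hpart : ∀ v, (out v).card + (N2 v).card + (bad v).card + 1 = n := by
    intro v
    have hu : (univ : Finset V) = insert v (out v ∪ (N2 v ∪ bad v)) := by
      ext w
      simp only [mem_univ, mem_insert, mem_union, mem_filter, true_and, true_iff, out, N2, bad]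
      by_cases h1 : w = v
      · exact Or.inl h1
      by_cases h2 : Adj v w
      · exact Or.inr (Or.inl h2)
      by_cases h3 : ∃ u, Adj v u ∧ Adj u w
      · exact Or.inr (Or.inr (Or.inl ⟨h1, h2, h3⟩))
      · exact Or.inr (Or.inr (Or.inr ⟨h1, h2, h3⟩))
    have hd1 : Disjoint (N2 v) (bad v) := by
      rw [disjoint_left]; intro w h h'
      simp only [N2, bad, mem_filter, mem_univ, true_and] at h h'
      exact h'.2.2 h.2.2
    have hd2 : Disjoint (out v) (N2 v ∪ bad v) := by
      rw [disjoint_left]; intro w h h'
      simp only [out, N2, bad, mem_filter, mem_univ, true_and, mem_union] at h h'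
      rcases h' with h' | h'
      · exact h'.2.1 h
      · exact h'.2.1 h
    have hv : v ∉ out v ∪ (N2 v ∪ bad v) := by
      simp only [out, N2, bad, mem_filter, mem_univ, true_and, mem_union, not_or]
      exact ⟨fun h => horiented _ _ h h, fun h => h.1 rfl, fun h => h.1 rfl⟩
    have := congrArg Finset.card hu
    rw [hcu, card_insert_of_notMem hv, card_union_of_disjoint hd2,
      card_union_of_disjoint hd1] at this
    omega
  have hbadlow : ∀ v, n ≤ (bad v).card + 2 * (out v).card := by
    intro v
    have := hpart v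
    have := hcon v
    omega
  -- double counting
  have hdc : ∑ v, (bad v).card = ∑ w, (Q w).card := by
    have h1 : ∀ v, (bad v).card = ∑ w, if w ∈ bad v then 1 else 0 := by
      intro v
      rw [← card_filter]
      congr 1
      ext w
      simp
    have h2 : ∀ w, (Q w).card = ∑ v, if w ∈ bad v then 1 else 0 := by
      intro w
      rw [← card_filter]
    simp only [h1, h2]
    exact sum_comm
  have harcs : ∑ v, (out v).card = ∑ w, (inn w).card := by
    have h1 : ∀ v, (out v).card = ∑ w, if Adj v w then 1 else 0 := by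
      intro v
      rw [← card_filter]
    have h2 : ∀ w, (inn w).card = ∑ v, if Adj v w then 1 else 0 := by
      intro w
      rw [← card_filter]
    simp only [h1, h2]
    exact sum_comm
  have htot : 2 * ∑ v, (out v).card + n ≤ n * n := by
    have := two_mul_arcs_le Adj horiented (univ : Finset V)
    rw [hcu] at this
    simpa [out] using this
  -- the basic inequality for every `w`
  have hweak : ∀ w, (inn w).card + δ + 1 ≤ n := by
    intro w
    have hd : Disjoint (inn w) (out w) := by
      rw [disjoint_left]; intro u h h'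
      simp only [inn, out, mem_filter, mem_univ, true_and] at h h'
      exact horiented _ _ h h'
    have hw : w ∉ inn w ∪ out w := by
      simp only [inn, out, mem_filter, mem_univ, true_and, mem_union, not_or]
      exact ⟨fun h => horiented _ _ h h, fun h => horiented _ _ h h⟩
    have hc : (insert w (inn w ∪ out w)).card ≤ n := card_le_univ _
    rw [card_insert_of_notMem hw, card_union_of_disjoint hd] at hc
    have := hδ w
    omega
  have hstrong : ∀ w, (Q w).Nonempty → (Q w).card + 2 * (inn w).card + 2 * δ + 3 ≤ 2 * n := by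
    intro w hne
    set W : Finset V := univ \ insert w (inn w) with hW
    have hwinn : w ∉ inn w := by
      simp only [inn, mem_filter, mem_univ, true_and]
      exact fun h => horiented _ _ h h
    have hWcard : W.card + (inn w).card + 1 = n := by
      have h1 : W.card = n - (insert w (inn w)).card := by
        rw [hW, card_sdiff_of_subset (subset_univ _), hcu]
      have h2 : (insert w (inn w)).card ≤ n := card_le_univ _
      rw [card_insert_of_notMem hwinn] at h1 h2
      omega
    have hQmem : ∀ v ∈ Q w, w ≠ v ∧ ¬ Adj v w ∧ ¬ ∃ u, Adj v u ∧ Adj u w := by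
      intro v hv
      simpa [Q, bad] using hv
    have hQW : Q w ⊆ W := by
      intro v hv
      obtain ⟨h1, h2, _⟩ := hQmem v hv
      simp only [hW, mem_sdiff, mem_univ, true_and, mem_insert, not_or, inn, mem_filter]
      exact ⟨fun h => h1 h.symm, h2⟩
    have houtW : ∀ v ∈ Q w, out v ⊆ W := by
      intro v hv u hu
      obtain ⟨h1, h2, h3⟩ := hQmem v hv
      simp only [out, mem_filter, mem_univ, true_and] at hu
      simp only [hW, mem_sdiff, mem_univ, true_and, mem_insert, not_or, inn, mem_filter]
      exact ⟨fun h => h2 (h ▸ hu), fun h => h3 ⟨u, hu, h⟩⟩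
    have hlocal : ∀ v ∈ Q w, δ + (Q w).card ≤ ((Q w).filter (fun u => Adj v u)).card + W.card := by
      intro v hv
      have hsplit : out v ⊆ (Q w).filter (fun u => Adj v u) ∪ (W \ Q w) := by
        intro u hu
        have huW := houtW v hv hu
        simp only [out, mem_filter, mem_univ, true_and] at hu
        by_cases huQ : u ∈ Q w
        · exact mem_union_left _ (mem_filter.2 ⟨huQ, hu⟩)
        · exact mem_union_right _ (mem_sdiff.2 ⟨huW, huQ⟩)
      have hc := (card_le_card hsplit).trans (card_union_le _ _)
      rw [card_sdiff_of_subset hQW] at hc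
      have := hδ v
      have := card_le_card hQW
      omega
    have hsum : (Q w).card * (δ + (Q w).card)
        ≤ ∑ v ∈ Q w, ((Q w).filter (fun u => Adj v u)).card + (Q w).card * W.card := by
      have := sum_le_sum hlocal
      simpa [sum_add_distrib, sum_const, smul_eq_mul] using this
    have harc := two_mul_arcs_le Adj horiented (Q w)
    set q := (Q w).card with hq
    have hqpos : 0 < q := card_pos.2 hne
    -- 2 q (δ + q) ≤ q q - q + 2 q |W|
    have h1 : 2 * (q * (δ + q)) + q ≤ q * q + 2 * (q * W.card) := by omega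
    have h2 : q * (2 * δ + q + 1) ≤ q * (2 * W.card) := by nlinarith
    have h3 : 2 * δ + q + 1 ≤ 2 * W.card := Nat.le_of_mul_le_mul_left h2 hqpos
    omega
  -- some `Q w` is nonempty
  have hex : ∃ w, (Q w).Nonempty := by
    by_contra hall
    push Not at hall
    have h0 : ∑ w, (Q w).card = 0 := by
      apply sum_eq_zero
      intro w _
      rw [hall w, card_empty]
    have h1 : ∑ v : V, n ≤ ∑ v, ((bad v).card + 2 * (out v).card) :=
      sum_le_sum fun v _ => hbadlow v
    rw [sum_add_distrib, ← mul_sum, hdc, h0, sum_const, hcu, smul_eq_mul] at h1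
    omega
  obtain ⟨w0, hw0⟩ := hex
  -- sum up
  have hsumQ : ∑ w, ((Q w).card + 2 * (inn w).card + 2 * δ + 2) < ∑ w : V, 2 * n := by
    apply sum_lt_sum
    · intro w _
      by_cases hne : (Q w).Nonempty
      · have := hstrong w hne; omega
      · rw [not_nonempty_iff_eq_empty] at hne
        have := hweak w
        rw [hne, card_empty]; omega
    · exact ⟨w0, mem_univ _, by have := hstrong w0 hw0; omega⟩
  have h1 : ∑ v : V, n ≤ ∑ v, ((bad v).card + 2 * (out v).card) :=
    sum_le_sum fun v _ => hbadlow v
  rw [sum_add_distrib, ← mul_sum, sum_const, hcu, smul_eq_mul] at h1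
  simp only [sum_add_distrib, ← mul_sum, sum_const, hcu, smul_eq_mul] at hsumQ
  rw [← hdc, ← harcs] at hsumQ
  have h2 : n * (2 * δ + 2) ≥ n * n := Nat.mul_le_mul_left _ hn
  have h3 : n * (2 * δ + 2) = n * (2 * δ) + n * 2 := by ring
  have h4 : n * (2 * n) = 2 * (n * n) := by ring
  have h5 : n * (2 * δ) = 2 * (n * δ) := by ring
  nlinarith

end Vale.Agent.Results.P038.DenseMinOutdegree
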