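import Mathlib
import Vale.Agent.P038.Kemperman

/-!
# Seymour's second neighbourhood conjecture for vertex-transitive oriented graphs

Every vertex of a finite vertex-transitive oriented graph satisfies
`|N₁⁺(v)| ≤ |N₂⁺(v)|`.  The proof applies Kemperman's theorem (product sets in which the
identity is uniquely represented) inside the permutation group of the vertex set.
-/

open Finset
open scoped Pointwise

namespace Vale.Agent.Results.P038.VertexTransitive

theorem result {V : Type*} [Finite V] (Adj : V → V → Prop)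
    (horiented : ∀ u v, Adj u v → ¬ Adj v u)
    (htrans : ∀ u v : V, ∃ φ : V ≃ V, (∀ a b, Adj a b ↔ Adj (φ a) (φ b)) ∧ φ u = v)
    (v : V) :
    {u | Adj v u}.ncard ≤ {w | w ≠ v ∧ ¬ Adj v w ∧ ∃ u, Adj v u ∧ Adj u w}.ncard := by
  classical
  have : Fintype V := Fintype.ofFinite V
  -- finset versions of the two neighbourhoods
  set N1 : Finset V := univ.filter (fun u => Adj v u) with hN1
  set N2 : Finset V := univ.filter (fun w => w ≠ v ∧ ¬ Adj v w ∧ ∃ u, Adj v u ∧ Adj u w) with hN2
  have e1 : {u | Adj v u}.ncard = N1.card := by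
    rw [← Set.ncard_coe_finset]; congr 1; ext; simp [hN1]
  have e2 : {w | w ≠ v ∧ ¬ Adj v w ∧ ∃ u, Adj v u ∧ Adj u w}.ncard = N2.card := by
    rw [← Set.ncard_coe_finset]; congr 1; ext; simp [hN2]
  rw [e1, e2]
  -- automorphisms
  let P : Equiv.Perm V → Prop := fun φ => ∀ a b, Adj a b ↔ Adj (φ a) (φ b)
  have hP1 : P 1 := fun a b => Iff.rfl
  have hPmul : ∀ φ ψ, P φ → P ψ → P (φ * ψ) := by
    intro φ ψ hφ hψ a b
    simp only [Equiv.Perm.mul_apply]
    exact (hψ a b).trans (hφ _ _)
  have hPinv : ∀ φ, P φ → P φ⁻¹ := by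
    intro φ hφ a b
    have := hφ (φ⁻¹ a) (φ⁻¹ b)
    simp at this
    exact this.symm
  -- fibres of the orbit map
  let fib : V → Finset (Equiv.Perm V) := fun w => univ.filter (fun φ => P φ ∧ φ v = w)
  set m := (fib v).card with hm
  have hfib : ∀ w, (fib w).card = m := by
    intro w
    obtain ⟨ψ, hψ, hψv⟩ := htrans v w
    have : fib w = (fib v).image (fun φ => (ψ : Equiv.Perm V) * φ) := by
      ext φ
      simp only [fib, mem_filter, mem_univ, true_and, mem_image]
      constructor
      · rintro ⟨hφ, hφv⟩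
        refine ⟨(ψ : Equiv.Perm V)⁻¹ * φ, ⟨hPmul _ _ (hPinv _ hψ) hφ, ?_⟩, by simp⟩
        simp only [Equiv.Perm.mul_apply, hφv]
        rw [← hψv]
        simp
      · rintro ⟨φ', ⟨hφ', hφ'v⟩, rfl⟩
        exact ⟨hPmul _ _ hψ hφ', by simp [Equiv.Perm.mul_apply, hφ'v, hψv]⟩
    rw [this, card_image_of_injective _ (mul_right_injective _)]
  let F : Finset V → Finset (Equiv.Perm V) := fun W => univ.filter (fun φ => P φ ∧ φ v ∈ W)
  have hF : ∀ W, (F W).card = m * W.card := by
    intro W
    have h := card_eq_sum_card_fiberwise (s := F W) (t := W) (f := fun φ => φ v)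
      (fun φ hφ => (mem_filter.1 hφ).2.2)
    rw [h]
    have : ∀ w ∈ W, ((F W).filter (fun φ => φ v = w)).card = m := by
      intro w hw
      rw [← hfib w]
      congr 1
      ext φ
      simp only [F, fib, mem_filter, mem_univ, true_and]
      constructor
      · rintro ⟨⟨h1, _⟩, h3⟩; exact ⟨h1, h3⟩
      · rintro ⟨h1, h3⟩; exact ⟨⟨h1, h3 ▸ hw⟩, h3⟩
    rw [sum_congr rfl this, sum_const, smul_eq_mul, mul_comm]
  -- the connection set
  set S := F N1 with hS
  have hSmem : ∀ φ, φ ∈ S ↔ P φ ∧ Adj v (φ v) := by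
    intro φ; simp [hS, F, hN1]
  have h1S : (1 : Equiv.Perm V) ∉ S := by
    intro h
    have := ((hSmem 1).1 h).2
    exact horiented _ _ this this
  set T := insert (1 : Equiv.Perm V) S with hT
  have hTcard : T.card = m * N1.card + 1 := by
    rw [hT, card_insert_of_notMem h1S, hS, hF]
  have h1T : (1 : Equiv.Perm V) ∈ T := mem_insert_self _ _
  have huniq : ∀ a ∈ T, ∀ b ∈ T, a * b = 1 → a = 1 := by
    intro a ha b hb hab
    rcases mem_insert.1 ha with ha | ha
    · exact ha
    rcases mem_insert.1 hb with hb | hb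
    · subst hb; simpa using hab
    exfalso
    obtain ⟨hPa, hav⟩ := (hSmem a).1 ha
    obtain ⟨_, hbv⟩ := (hSmem b).1 hb
    have h2 : Adj (a v) (a (b v)) := (hPa _ _).1 hbv
    have h3 : a (b v) = v := by
      have := congrArg (fun f : Equiv.Perm V => f v) hab
      simpa [Equiv.Perm.mul_apply] using this
    rw [h3] at h2
    exact horiented _ _ hav h2
  have hkem := Vale.Agent.P038.kemperman T T h1T h1T huniq
  -- the product set lies over the ball of radius two
  have hsub : T * T ⊆ F (({v} ∪ N1) ∪ N2) := by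
    intro φ hφ
    obtain ⟨a, ha, b, hb, rfl⟩ := mem_mul.1 hφ
    have hTP : ∀ c ∈ T, P c ∧ (c v = v ∨ Adj v (c v)) := by
      intro c hc
      rcases mem_insert.1 hc with hc | hc
      · subst hc; exact ⟨hP1, Or.inl rfl⟩
      · exact ⟨((hSmem c).1 hc).1, Or.inr ((hSmem c).1 hc).2⟩
    obtain ⟨hPa, hav⟩ := hTP a ha
    obtain ⟨hPb, hbv⟩ := hTP b hb
    simp only [F, mem_filter, mem_univ, true_and]
    refine ⟨hPmul _ _ hPa hPb, ?_⟩
    simp only [Equiv.Perm.mul_apply, mem_union, mem_singleton, hN1, hN2, mem_filter, mem_univ,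
      true_and]
    rcases hbv with hbv | hbv
    · rw [hbv]
      rcases hav with hav | hav
      · exact Or.inl (Or.inl hav)
      · exact Or.inl (Or.inr hav)
    · have h2 : Adj (a v) (a (b v)) := (hPa _ _).1 hbv
      rcases hav with hav | hav
      · rw [hav] at h2
        exact Or.inl (Or.inr h2)
      · by_cases h3 : Adj v (a (b v))
        · exact Or.inl (Or.inr h3)
        · refine Or.inr ⟨?_, h3, a v, hav, h2⟩
          intro h4
          rw [h4] at h2
          exact horiented _ _ hav h2
  have hcard := card_le_card hsub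
  rw [hF] at hcard
  have hU : (({v} ∪ N1) ∪ N2).card ≤ 1 + N1.card + N2.card := by
    calc (({v} ∪ N1) ∪ N2).card ≤ ({v} ∪ N1).card + N2.card := card_union_le _ _
      _ ≤ (({v} : Finset V).card + N1.card) + N2.card := by
          gcongr; exact card_union_le _ _
      _ = 1 + N1.card + N2.card := by simp
  by_contra hlt
  push Not at hlt
  have h5 : (({v} ∪ N1) ∪ N2).card ≤ 2 * N1.card := by omega
  have h6 : m * (({v} ∪ N1) ∪ N2).card ≤ m * (2 * N1.card) := Nat.mul_le_mul_left _ h5
  rw [hTcard] at hkem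
  have h7 : m * (2 * N1.card) = 2 * (m * N1.card) := by ring
  omega

end Vale.Agent.Results.P038.VertexTransitive
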