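import Mathlib
import Vale.Agent.Results.P038.DenseMinOutdegree
import Vale.Agent.Results.P038.VertexTransitive

/-!
# Seymour's second neighbourhood conjecture: two classes of oriented graphs in one statement

Out-neighbourhoods are written as finsets of a finite vertex type.
-/

open Finset

namespace Vale.Agent.Results.P038.TransitiveOrDense

/-- Let `D` be an oriented graph on a finite nonempty vertex set `V` (arc relation `Adj`, no loops,
no opposite arcs).  Write `N1 v` for the out-neighbours of `v` and `N2 v` for the vertices at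
directed distance exactly two from `v`.

* If `2 * |N1 v| + 2 ≥ |V|` for every vertex `v` (minimum out-degree at least `|V| / 2 - 1`), then
  some vertex satisfies `|N1 v| ≤ |N2 v|`.
* If `D` is vertex-transitive, then every vertex satisfies `|N1 v| ≤ |N2 v|`.
* Consequently a counterexample to the conjecture is not vertex-transitive and has a vertex `v`
  with `2 * |N1 v| + 3 ≤ |V|`. -/
theorem result {V : Type*} [Fintype V] [DecidableEq V] [Nonempty V] (Adj : V → V → Prop)
    [DecidableRel Adj] (horiented : ∀ u v, Adj u v → ¬ Adj v u) :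
    ((∀ v : V, Fintype.card V ≤ 2 * (univ.filter (fun u => Adj v u)).card + 2) →
      ∃ v : V, (univ.filter (fun u => Adj v u)).card ≤
        (univ.filter (fun w => w ≠ v ∧ ¬ Adj v w ∧ ∃ u, Adj v u ∧ Adj u w)).card) ∧
    ((∀ u v : V, ∃ φ : V ≃ V, (∀ a b, Adj a b ↔ Adj (φ a) (φ b)) ∧ φ u = v) →
      ∀ v : V, (univ.filter (fun u => Adj v u)).card ≤
        (univ.filter (fun w => w ≠ v ∧ ¬ Adj v w ∧ ∃ u, Adj v u ∧ Adj u w)).card) ∧
    ((∀ v : V, (univ.filter (fun w => w ≠ v ∧ ¬ Adj v w ∧ ∃ u, Adj v u ∧ Adj u w)).card <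
        (univ.filter (fun u => Adj v u)).card) →
      (∃ v : V, 2 * (univ.filter (fun u => Adj v u)).card + 3 ≤ Fintype.card V) ∧
      ¬ ∀ u v : V, ∃ φ : V ≃ V, (∀ a b, Adj a b ↔ Adj (φ a) (φ b)) ∧ φ u = v) := by
  have e1 : ∀ v : V, {u | Adj v u}.ncard = (univ.filter (fun u => Adj v u)).card := by
    intro v
    rw [← Set.ncard_coe_finset]; congr 1; ext; simp
  have e2 : ∀ v : V, {w | w ≠ v ∧ ¬ Adj v w ∧ ∃ u, Adj v u ∧ Adj u w}.ncard
      = (univ.filter (fun w => w ≠ v ∧ ¬ Adj v w ∧ ∃ u, Adj v u ∧ Adj u w)).card := by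
    intro v
    rw [← Set.ncard_coe_finset]; congr 1; ext; simp
  have hA : (∀ v : V, Fintype.card V ≤ 2 * (univ.filter (fun u => Adj v u)).card + 2) →
      ∃ v : V, (univ.filter (fun u => Adj v u)).card ≤
        (univ.filter (fun w => w ≠ v ∧ ¬ Adj v w ∧ ∃ u, Adj v u ∧ Adj u w)).card := by
    intro h
    -- the minimum out-degree
    obtain ⟨v0, -, hv0⟩ := Finset.exists_min_image (univ : Finset V)
      (fun v => (univ.filter (fun u => Adj v u)).card) univ_nonempty
    have := Vale.Agent.Results.P038.DenseMinOutdegree.result Adj horiented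
      (univ.filter (fun u => Adj v0 u)).card
      (fun v => by rw [e1]; exact hv0 v (mem_univ v))
      (by rw [Nat.card_eq_fintype_card]; exact h v0)
    simpa only [e1, e2] using this
  have hB : (∀ u v : V, ∃ φ : V ≃ V, (∀ a b, Adj a b ↔ Adj (φ a) (φ b)) ∧ φ u = v) →
      ∀ v : V, (univ.filter (fun u => Adj v u)).card ≤
        (univ.filter (fun w => w ≠ v ∧ ¬ Adj v w ∧ ∃ u, Adj v u ∧ Adj u w)).card := by
    intro h v
    have := Vale.Agent.Results.P038.VertexTransitive.result Adj horiented h v
    simpa only [e1, e2] using this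
  refine ⟨hA, hB, fun hc => ⟨?_, ?_⟩⟩
  · by_contra hno
    have h' : ∀ v : V, Fintype.card V ≤ 2 * (univ.filter (fun u => Adj v u)).card + 2 := by
      intro v
      by_contra hv
      exact hno ⟨v, by omega⟩
    obtain ⟨v, hv⟩ := hA h'
    exact absurd (hc v) (by omega)
  · intro ht
    obtain ⟨v⟩ := (inferInstance : Nonempty V)
    exact absurd (hc v) (by have := hB ht v; omega)

end Vale.Agent.Results.P038.TransitiveOrDense
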